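import Mathlib

/-!
# A finitely generated free group has a finite basis
-/

namespace Vale.Agent.Lib.P192

open Subgroup

theorem exists_finset_mem_closure_of {α : Type*} (x : FreeGroup α) :
    ∃ A : Finset α, x ∈ closure (FreeGroup.of '' (A : Set α)) := by
  classical
  induction x using FreeGroup.induction_on with
  | C1 => exact ⟨∅, one_mem _⟩
  | of a => exact ⟨{a}, subset_closure ⟨a, by simp, rfl⟩⟩
  | inv_of a ih =>
    obtain ⟨A, hA⟩ := ih
    exact ⟨A, inv_mem hA⟩
  | mul x y hx hy =>
    obtain ⟨A, hA⟩ := hx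
    obtain ⟨B, hB⟩ := hy
    refine ⟨A ∪ B, mul_mem ?_ ?_⟩
    · exact closure_mono (Set.image_mono (by simp)) hA
    · exact closure_mono (Set.image_mono (by simp)) hB

theorem finite_of_fg_freeGroup {α : Type*} [h : Group.FG (FreeGroup α)] : Finite α := by
  classical
  obtain ⟨S, hS⟩ := (Group.fg_def.mp h)
  choose A hA using (exists_finset_mem_closure_of (α := α))
  let B : Finset α := S.biUnion A
  have hB : closure (FreeGroup.of '' (B : Set α)) = ⊤ := by
    rw [eq_top_iff, ← hS, closure_le]
    intro s hs
    refine closure_mono (Set.image_mono ?_) (hA s)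
    intro a ha
    simp only [B, Finset.coe_biUnion, Set.mem_iUnion]
    exact ⟨s, hs, ha⟩
  have hall : ∀ b : α, b ∈ B := by
    intro b
    by_contra hb
    let f : FreeGroup α →* Multiplicative (ZMod 2) :=
      FreeGroup.lift (fun a => if a = b then Multiplicative.ofAdd 1 else 1)
    have hf : closure (FreeGroup.of '' (B : Set α)) ≤ f.ker := by
      rw [closure_le]
      rintro _ ⟨a, ha, rfl⟩
      have : a ≠ b := fun h => hb (h ▸ ha)
      simp [f, MonoidHom.mem_ker, this]
    rw [hB] at hf
    have h1 : f (FreeGroup.of b) = 1 := hf (mem_top _)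
    simp [f] at h1
  exact @Finite.of_fintype α ⟨B, hall⟩

end Vale.Agent.Lib.P192
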