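import Mathlib
import Vale.Agent.Lib.P192.FreeFinite

/-!
# Finite-index subgroups of finitely presented groups are finitely presented
(Reidemeister-Schreier, in the soft form obtained from Nielsen-Schreier.)
-/

namespace Vale.Agent.Lib.P192

open Subgroup

theorem isFinitelyNormallyGenerated_subgroupOf {F : Type*} [Group F] (K E : Subgroup F)
    [E.FiniteIndex] (hK : K.IsFinitelyNormallyGenerated) (hKE : K ≤ E) :
    (K.subgroupOf E).IsFinitelyNormallyGenerated := by
  classical
  obtain ⟨S, hS, rfl⟩ := hK
  obtain ⟨T, hT, -⟩ := E.exists_isComplement_right 1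
  have hTfin : T.Finite := hT.finite_right
  let S' : Set E := Subtype.val ⁻¹' (Set.image2 (fun t s => t * s * t⁻¹) T S)
  have hS'fin : S'.Finite := (hTfin.image2 _ hS).preimage Subtype.val_injective.injOn
  refine ⟨S', hS'fin, le_antisymm ?_ ?_⟩
  · refine normalClosure_le_normal ?_
    rintro x ⟨t, _, s, hs, hx⟩
    rw [SetLike.mem_coe, mem_subgroupOf, ← hx]
    exact (normalClosure_normal (s := S)).conj_mem s (subset_normalClosure hs) t
  · have key : normalClosure S ≤ (normalClosure S').map E.subtype := by
      rw [normalClosure, closure_le]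
      intro x hx
      obtain ⟨s, hs, hsx⟩ := Group.mem_conjugatesOfSet_iff.mp hx
      obtain ⟨f, rfl⟩ := isConj_iff.mp hsx
      obtain ⟨⟨e, t⟩, het, -⟩ := (isComplement_iff_existsUnique.mp hT) f
      simp only at het
      have hmem : (t : F) * s * (t : F)⁻¹ ∈ E :=
        hKE ((normalClosure_normal (s := S)).conj_mem s (subset_normalClosure hs) t)
      have h1 : (⟨(t : F) * s * (t : F)⁻¹, hmem⟩ : E) ∈ normalClosure S' :=
        subset_normalClosure ⟨t, t.2, s, hs, rfl⟩
      have h2 := (normalClosure_normal (s := S')).conj_mem _ h1 e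
      refine ⟨_, h2, ?_⟩
      simp only [subtype_apply, coe_mul, InvMemClass.coe_inv]
      rw [← het]
      group
    intro x hx
    rw [mem_subgroupOf] at hx
    obtain ⟨y, hy, hyx⟩ := key hx
    have : y = x := Subtype.ext hyx
    exact this ▸ hy

theorem isFinitelyPresented_of_finiteIndex {G : Type*} [Group G]
    [hG : Group.IsFinitelyPresented G] (H : Subgroup G) [hH : H.FiniteIndex] :
    Group.IsFinitelyPresented H := by
  obtain ⟨n, φ, hφ, hker⟩ := hG.out
  let E : Subgroup (FreeGroup (Fin n)) := H.comap φ
  have hE : E.FiniteIndex := ⟨by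
    rw [index_comap_of_surjective H hφ]; exact hH.index_ne_zero⟩
  have : Group.FG E := fg_of_index_ne_zero E
  have : IsFreeGroup E := inferInstance
  have : Group.FG (FreeGroup (IsFreeGroup.Generators E)) :=
    Group.fg_of_surjective (f := (IsFreeGroup.toFreeGroup E).toMonoidHom)
      (IsFreeGroup.toFreeGroup E).surjective
  have : Finite (IsFreeGroup.Generators E) := finite_of_fg_freeGroup
  have : Group.IsFinitelyPresented E :=
    Group.IsFinitelyPresented.equiv (IsFreeGroup.toFreeGroup E).symm
  let ψ : E →* H := φ.subgroupComap H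
  have hψ : Function.Surjective ψ := φ.subgroupComap_surjective_of_surjective H hφ
  have hkerψ : ψ.ker = φ.ker.subgroupOf E := by
    ext x
    rw [MonoidHom.mem_ker, mem_subgroupOf, MonoidHom.mem_ker, Subtype.ext_iff]
    rfl
  have hle : φ.ker ≤ E := by
    intro x hx
    change φ x ∈ H
    rw [MonoidHom.mem_ker.mp hx]
    exact one_mem H
  refine Group.IsFinitelyPresented.of_surjective ψ hψ ?_
  rw [hkerψ]
  exact isFinitelyNormallyGenerated_subgroupOf _ _ hker hle

end Vale.Agent.Lib.P192
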