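import Mathlib

/-!
# Semidirect products, products and finite powers of finitely presented groups
are finitely presented
-/

namespace Vale.Agent.Lib.P192

open Subgroup

theorem fg_of_isFinitelyPresented (G : Type*) [Group G] [h : Group.IsFinitelyPresented G] :
    Group.FG G := by
  obtain ⟨n, φ, hφ, -⟩ := h.out
  exact Group.fg_of_surjective hφ

section semidirect

variable {N Q : Type*} [Group N] [Group Q] (φ : Q →* MulAut N)

/-- The canonical map from the free product onto the semidirect product. -/
def coprodToSemi : Monoid.Coprod N Q →* N ⋊[φ] Q :=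
  Monoid.Coprod.lift SemidirectProduct.inl SemidirectProduct.inr

theorem coprodToSemi_surjective : Function.Surjective (coprodToSemi φ) := by
  intro x
  refine ⟨Monoid.Coprod.inl x.left * Monoid.Coprod.inr x.right, ?_⟩
  simp [coprodToSemi]

/-- The finitely many relators which cut the semidirect product out of the free product. -/
def semiRels (X : Set N) (Y : Set Q) : Set (Monoid.Coprod N Q) :=
  Set.image2 (fun x y => Monoid.Coprod.inr y * Monoid.Coprod.inl x * (Monoid.Coprod.inr y)⁻¹ *
    (Monoid.Coprod.inl (φ y x))⁻¹) X Y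

theorem ker_coprodToSemi (X : Set N) (Y : Set Q) (hX : closure X = ⊤) (hY : closure Y = ⊤) :
    normalClosure (semiRels φ X Y) = (coprodToSemi φ).ker := by
  apply le_antisymm
  · refine normalClosure_le_normal ?_
    rintro _ ⟨x, _, y, _, rfl⟩
    simp [coprodToSemi, MonoidHom.mem_ker, SemidirectProduct.inl_aut]
  · set K := normalClosure (semiRels φ X Y) with hK
    let q : Monoid.Coprod N Q →* Monoid.Coprod N Q ⧸ K := QuotientGroup.mk' K
    let ι : N →* Monoid.Coprod N Q ⧸ K := q.comp Monoid.Coprod.inl
    let ρ : Q →* Monoid.Coprod N Q ⧸ K := q.comp Monoid.Coprod.inr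
    -- step 1: the relation for y in Y and all n
    have h1 : ∀ y ∈ Y, ∀ n : N, ι (φ y n) = ρ y * ι n * (ρ y)⁻¹ := by
      intro y hy
      have : ι.comp (φ y).toMonoidHom = (MulAut.conj (ρ y)).toMonoidHom.comp ι := by
        refine MonoidHom.eq_of_eqOn_dense hX ?_
        intro x hx
        have hmem : Monoid.Coprod.inr y * Monoid.Coprod.inl x * (Monoid.Coprod.inr y)⁻¹ *
            (Monoid.Coprod.inl (φ y x))⁻¹ ∈ K := subset_normalClosure ⟨x, hx, y, hy, rfl⟩
        have h2 : q (Monoid.Coprod.inr y * Monoid.Coprod.inl x * (Monoid.Coprod.inr y)⁻¹ *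
            (Monoid.Coprod.inl (φ y x))⁻¹) = 1 := (QuotientGroup.eq_one_iff _).mpr hmem
        simp only [map_mul, map_inv] at h2
        have h3 := mul_inv_eq_one.mp h2
        simp only [MonoidHom.comp_apply, MulEquiv.coe_toMonoidHom, MulAut.conj_apply, ι, ρ]
        exact h3.symm
      intro n
      have := DFunLike.congr_fun this n
      simpa using this
    -- step 2: the relation for all g
    let L : Subgroup Q :=
      { carrier := {g | ∀ n : N, ι (φ g n) = ρ g * ι n * (ρ g)⁻¹}
        one_mem' := by intro n; simp
        mul_mem' := by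
          intro a b ha hb n
          have ha' : ∀ n : N, ι (φ a n) = ρ a * ι n * (ρ a)⁻¹ := ha
          have hb' : ∀ n : N, ι (φ b n) = ρ b * ι n * (ρ b)⁻¹ := hb
          rw [map_mul, MulAut.mul_apply, ha', hb', map_mul, mul_inv_rev]
          simp only [mul_assoc]
        inv_mem' := by
          intro a ha n
          have ha' : ∀ n : N, ι (φ a n) = ρ a * ι n * (ρ a)⁻¹ := ha
          have := ha' (φ a⁻¹ n)
          rw [← MulAut.mul_apply, ← map_mul, mul_inv_cancel, map_one, MulAut.one_apply] at this
          rw [this]
          simp [mul_assoc] }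
    have hL : L = ⊤ := by
      rw [eq_top_iff, ← hY, closure_le]
      exact h1
    have h2 : ∀ g, ι.comp (φ g).toMonoidHom = (MulAut.conj (ρ g)).toMonoidHom.comp ι := by
      intro g
      ext n
      have : g ∈ L := hL ▸ mem_top g
      simpa using this n
    let Θ : N ⋊[φ] Q →* Monoid.Coprod N Q ⧸ K := SemidirectProduct.lift ι ρ h2
    have hΘ : Θ.comp (coprodToSemi φ) = q := by
      apply Monoid.Coprod.hom_ext
      · ext n; simp [Θ, coprodToSemi, ι]
      · ext g; simp [Θ, coprodToSemi, ρ]
    intro c hc
    have : q c = 1 := by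
      rw [← hΘ, MonoidHom.comp_apply, MonoidHom.mem_ker.mp hc, map_one]
    exact (QuotientGroup.eq_one_iff _).mp this

theorem isFinitelyPresented_semidirectProduct [Group.IsFinitelyPresented N]
    [Group.IsFinitelyPresented Q] : Group.IsFinitelyPresented (N ⋊[φ] Q) := by
  obtain ⟨X, hX⟩ := Group.fg_def.mp (fg_of_isFinitelyPresented N)
  obtain ⟨Y, hY⟩ := Group.fg_def.mp (fg_of_isFinitelyPresented Q)
  refine Group.IsFinitelyPresented.of_surjective (coprodToSemi φ) (coprodToSemi_surjective φ) ?_
  exact ⟨semiRels φ X Y, (X.finite_toSet.image2 _ Y.finite_toSet), ker_coprodToSemi φ X Y hX hY⟩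

end semidirect

theorem isFinitelyPresented_prod (N Q : Type*) [Group N] [Group Q] [Group.IsFinitelyPresented N]
    [Group.IsFinitelyPresented Q] : Group.IsFinitelyPresented (N × Q) := by
  have := isFinitelyPresented_semidirectProduct (1 : Q →* MulAut N)
  exact Group.IsFinitelyPresented.equiv SemidirectProduct.mulEquivProd

/-- Splitting off the `none` coordinate, as a group isomorphism. -/
def piOptionMulEquiv (α G : Type*) [Group G] : (Option α → G) ≃* G × (α → G) :=
  { Equiv.piOptionEquivProd (β := fun _ : Option α => G) with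
    map_mul' := fun _ _ => rfl }

theorem isFinitelyPresented_pi (G : Type*) [Group G] [Group.IsFinitelyPresented G]
    (Ω : Type*) [Finite Ω] : Group.IsFinitelyPresented (Ω → G) := by
  refine Finite.induction_empty_option (P := fun α => Group.IsFinitelyPresented (α → G))
    ?_ ?_ ?_ Ω
  · intro α β e h
    exact Group.IsFinitelyPresented.equiv (MulEquiv.arrowCongr e (MulEquiv.refl G))
  · infer_instance
  · intro α _ h
    have := isFinitelyPresented_prod G (α → G)
    exact Group.IsFinitelyPresented.equiv (piOptionMulEquiv α G).symm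

end Vale.Agent.Lib.P192
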