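import Mathlib
import Vale.Agent.Lib.P192.Semidirect
import Vale.Agent.Lib.P192.FiniteIndex

/-!
# Permutational wreath products `G wr Sym(Ω)` and a finite-index criterion
-/

namespace Vale.Agent.Lib.P192

open Subgroup SemidirectProduct
open scoped commutatorElement

/-- `Sym(Ω)` acts on `Ω → G` by permuting coordinates. -/
def permAut (G Ω : Type*) [Group G] : Equiv.Perm Ω →* MulAut (Ω → G) where
  toFun σ :=
    { toFun := fun f => f ∘ σ.symm
      invFun := fun f => f ∘ σ
      left_inv := fun f => by ext ω; simp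
      right_inv := fun f => by ext ω; simp
      map_mul' := fun _ _ => rfl }
  map_one' := rfl
  map_mul' _ _ := rfl

@[simp] theorem permAut_apply {G Ω : Type*} [Group G] (σ : Equiv.Perm Ω) (f : Ω → G) (ω : Ω) :
    permAut G Ω σ f ω = f (σ⁻¹ ω) := rfl

/-- The (unrestricted) permutational wreath product of `G` with the full symmetric group. -/
abbrev Wr (G Ω : Type*) [Group G] := (Ω → G) ⋊[permAut G Ω] Equiv.Perm Ω

variable {G Ω : Type*} [Group G]

theorem isFinitelyPresented_wr [Group.IsFinitelyPresented G] [Finite Ω] :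
    Group.IsFinitelyPresented (Wr G Ω) := by
  have := isFinitelyPresented_pi G Ω
  exact isFinitelyPresented_semidirectProduct _

theorem isMulTorsion_pi [Finite Ω] (hG : IsMulTorsion G) : IsMulTorsion (Ω → G) := by
  classical
  cases nonempty_fintype Ω
  intro f
  rw [isOfFinOrder_iff_pow_eq_one]
  refine ⟨∏ ω, orderOf (f ω), Finset.prod_pos fun ω _ => (hG (f ω)).orderOf_pos, ?_⟩
  ext ω
  rw [Pi.pow_apply, Pi.one_apply]
  exact orderOf_dvd_iff_pow_eq_one.mp (Finset.dvd_prod_of_mem _ (Finset.mem_univ ω))

theorem isMulTorsion_wr [Finite Ω] (hG : IsMulTorsion G) : IsMulTorsion (Wr G Ω) := by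
  refine IsMulTorsion.extension_closed (f := (rightHom : Wr G Ω →* Equiv.Perm Ω)) rfl
    isMulTorsion_of_finite ?_
  rintro ⟨x, hx⟩
  rw [← Submonoid.isOfFinOrder_coe]
  change IsOfFinOrder x
  rw [← range_inl_eq_ker_rightHom] at hx
  obtain ⟨f, rfl⟩ := hx
  exact MonoidHom.isOfFinOrder _ (isMulTorsion_pi hG f)

theorem conj_inl_mulSingle [DecidableEq Ω] (h : Wr G Ω) (ω : Ω) (x : G) :
    h * inl (Pi.mulSingle ω x) * h⁻¹ =
      inl (Pi.mulSingle (h.right ω) (h.left (h.right ω) * x * (h.left (h.right ω))⁻¹)) := by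
  ext ω'
  · simp only [mul_left, mul_right, left_inl, right_inl, inv_left, mul_one, Pi.mul_apply,
      permAut_apply, Pi.inv_apply, inv_inv]
    have e1 : h.right (h.right⁻¹ ω') = ω' := by simp
    rw [e1]
    by_cases hω : ω' = h.right ω
    · subst hω
      simp
    · have : h.right⁻¹ ω' ≠ ω := by
        intro h'
        apply hω
        rw [← h']
        simp
      rw [Pi.mulSingle_eq_of_ne hω, Pi.mulSingle_eq_of_ne this]
      simp
  · simp

/-- If `K` is normal and contains the commutators of a generating set, it contains `G'`. -/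
theorem commutator_le_of_generators (K : Subgroup G) [K.Normal] (S : Set G)
    (hS : closure S = ⊤) (h : ∀ s ∈ S, ∀ s' ∈ S, ⁅s, s'⁆ ∈ K) : commutator G ≤ K := by
  let π := QuotientGroup.mk' K
  have hcomm : ∀ s ∈ S, ∀ s' ∈ S, π s * π s' = π s' * π s := by
    intro s hs s' hs'
    have := (QuotientGroup.eq_one_iff (N := K) _).mpr (h s hs s' hs')
    have h2 : π ⁅s, s'⁆ = 1 := this
    rw [map_commutatorElement, commutatorElement_eq_one_iff_mul_comm] at h2
    exact h2
  have h1 : ∀ s ∈ S, ∀ y : G, π s * π y = π y * π s := by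
    intro s hs y
    have hy : y ∈ closure S := hS ▸ mem_top y
    induction hy using closure_induction with
    | mem x hx => exact hcomm s hs x hx
    | one => simp
    | mul a b _ _ ha hb => rw [map_mul, ← mul_assoc, ha, mul_assoc, hb, mul_assoc]
    | inv a _ ha =>
      rw [map_inv, mul_inv_eq_iff_eq_mul, mul_assoc, ha, ← mul_assoc, inv_mul_cancel, one_mul]
  have h2 : ∀ x y : G, π x * π y = π y * π x := by
    intro x y
    have hx : x ∈ closure S := hS ▸ mem_top x
    induction hx using closure_induction with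
    | mem s hs => exact h1 s hs y
    | one => simp
    | mul a b _ _ ha hb => rw [map_mul, mul_assoc, hb, ← mul_assoc, ha, mul_assoc]
    | inv a _ ha =>
      rw [map_inv, inv_mul_eq_iff_eq_mul, ← mul_assoc, ha, mul_assoc, mul_inv_cancel, mul_one]
  rw [_root_.commutator_def, commutator_le]
  intro x _ y _
  have : π ⁅x, y⁆ = 1 := by
    rw [map_commutatorElement, commutatorElement_eq_one_iff_mul_comm]
    exact h2 x y
  exact (QuotientGroup.eq_one_iff _).mp this

/-- the coordinate embedding `G → Wr G Ω` at `ω` -/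
def coord [DecidableEq Ω] (ω : Ω) : G →* Wr G Ω :=
  (inl : (Ω → G) →* Wr G Ω).comp (MonoidHom.mulSingle (fun _ : Ω => G) ω)

@[simp] theorem coord_apply [DecidableEq Ω] (ω : Ω) (x : G) :
    (coord ω x : Wr G Ω) = inl (Pi.mulSingle ω x) := rfl

theorem commutator_le_coord [DecidableEq Ω] (H : Subgroup (Wr G Ω)) (ω : Ω) (S : Set G)
    (hS : closure S = ⊤)
    (h1 : ∀ s ∈ S, ∃ h ∈ H, h.right ω = ω ∧ h.left ω = s)
    (h2 : ∀ s ∈ S, ∀ s' ∈ S, (coord ω ⁅s, s'⁆ : Wr G Ω) ∈ H) :
    commutator G ≤ H.comap (coord ω) := by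
  set K := H.comap (coord ω) with hK
  have hnorm : normalizer (K : Set G) = ⊤ := by
    rw [eq_top_iff, ← hS, closure_le]
    intro s hs
    obtain ⟨h, hh, hr, hl⟩ := h1 s hs
    rw [SetLike.mem_coe, mem_normalizer_iff]
    intro x
    have key := conj_inl_mulSingle h ω x
    rw [hr, hl] at key
    rw [hK, mem_comap, mem_comap, coord_apply, coord_apply, ← key]
    constructor
    · intro hx
      exact H.mul_mem (H.mul_mem hh hx) (H.inv_mem hh)
    · intro hx
      have := H.mul_mem (H.mul_mem (H.inv_mem hh) hx) hh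
      simpa [mul_assoc] using this
  have : K.Normal := normalizer_eq_top_iff.mp hnorm
  exact commutator_le_of_generators K S hS h2

theorem commutator_le_coord_of_transitive [DecidableEq Ω] (H : Subgroup (Wr G Ω)) (ω₀ : Ω)
    (h0 : commutator G ≤ H.comap (coord ω₀))
    (htrans : ∀ ω, ∃ h ∈ H, h.right ω₀ = ω) (ω : Ω) :
    commutator G ≤ H.comap (coord ω) := by
  intro x hx
  obtain ⟨h, hh, rfl⟩ := htrans ω
  set y := (h.left (h.right ω₀))⁻¹ * x * (h.left (h.right ω₀)) with hy
  have hyc : y ∈ commutator G := by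
    have := (inferInstance : (commutator G).Normal).conj_mem x hx (h.left (h.right ω₀))⁻¹
    simpa [hy] using this
  have key := conj_inl_mulSingle h ω₀ y
  have h3 : h.left (h.right ω₀) * y * (h.left (h.right ω₀))⁻¹ = x := by
    rw [hy]; group
  rw [h3] at key
  rw [mem_comap, coord_apply, ← key]
  exact H.mul_mem (H.mul_mem hh (h0 hyc)) (H.inv_mem hh)

/-- Functoriality of the wreath product in `G`. -/
def wrMap {G' : Type*} [Group G'] (f : G →* G') (Ω : Type*) : Wr G Ω →* Wr G' Ω :=
  SemidirectProduct.map (f.compLeft Ω) (MonoidHom.id _) (fun _ => rfl)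

theorem finiteIndex_of_commutator_le [Finite Ω] [DecidableEq Ω] [Group.FG G]
    (hG : IsMulTorsion G) (H : Subgroup (Wr G Ω))
    (h : ∀ ω, commutator G ≤ H.comap (coord ω)) : H.FiniteIndex := by
  have hfg : Group.FG (Abelianization G) :=
    Group.fg_of_surjective (f := Abelianization.of) (QuotientGroup.mk'_surjective (commutator G))
  have hfin : Finite (Abelianization G) :=
    CommGroup.finite_of_fg_isMulTorsion _
      (IsMulTorsion.of_surjective (f := Abelianization.of)
        (QuotientGroup.mk'_surjective (commutator G)) hG)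
  have : Finite (Wr (Abelianization G) Ω) := Finite.of_equiv _ SemidirectProduct.equivProd.symm
  let Ξ : Wr G Ω →* Wr (Abelianization G) Ω := wrMap Abelianization.of Ω
  have hker : Ξ.ker ≤ H := by
    intro x hx
    rw [MonoidHom.mem_ker] at hx
    have hr : x.right = 1 := by
      have := congrArg SemidirectProduct.right hx
      exact this
    have hl : ∀ ω, x.left ω ∈ commutator G := by
      intro ω
      have := congrFun (congrArg SemidirectProduct.left hx) ω
      have h2 : Abelianization.of (x.left ω) = 1 := this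
      rw [← MonoidHom.mem_ker, Abelianization.ker_of] at h2
      exact h2
    have hx' : x = inl x.left := by
      ext ω
      · simp
      · simp [hr]
    rw [hx']
    have : x.left ∈ H.comap (inl : (Ω → G) →* Wr G Ω) := by
      apply pi_mem_of_mulSingle_mem
      intro ω
      exact h ω (hl ω)
    exact this
  exact finiteIndex_of_le hker

theorem infinite_wr [Infinite G] [Nonempty Ω] : Infinite (Wr G Ω) := by
  classical
  obtain ⟨ω⟩ := ‹Nonempty Ω›
  refine Infinite.of_injective (fun g : G => (inl (fun _ => g) : Wr G Ω)) ?_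
  intro a b hab
  have := congrFun (inl_injective hab) ω
  exact this

end Vale.Agent.Lib.P192
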