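import Mathlib
import Vale.Agent.Lib.P192.Wreath

/-!
# The two-generator subgroup of finite index in `G wr Sym(Z/n)`
-/

namespace Vale.Agent.Lib.P192

open Subgroup SemidirectProduct
open scoped commutatorElement

section abstractSidon

variable {G : Type*} [Group G] {A : Type*} [AddCommGroup A] [DecidableEq A]
  {ι : Type*} (p : ι → A) (g : ι → G) (e : A)

/-- the element of the base group carrying `g i` at position `p i` -/
noncomputable def aFun : A → G := Function.extend p g 1

/-- first generator -/
noncomputable def genA : Wr G A := inl (aFun p g)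

/-- second generator: the translation by `e` -/
def genT : Wr G A := inr (Equiv.addLeft e)

/-- the two-generator subgroup -/
noncomputable def twoGenSubgroup : Subgroup (Wr G A) := closure {genA p g, genT e}

omit [DecidableEq A] in
theorem inr_addLeft_mem (hcyc : ∀ c : A, ∃ k : ℕ, c = k • e) (c : A) :
    (inr (Equiv.addLeft c) : Wr G A) ∈ twoGenSubgroup p g e := by
  obtain ⟨k, rfl⟩ := hcyc c
  rw [← Equiv.nsmul_addLeft, map_pow]
  exact pow_mem (subset_closure (by simp [genT])) k

/-- translates of the first generator -/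
noncomputable def bFun (c : A) : A → G := fun ω => aFun p g (c + ω)

omit [DecidableEq A] in
theorem inl_bFun_mem (hcyc : ∀ c : A, ∃ k : ℕ, c = k • e) (c : A) :
    (inl (bFun p g c) : Wr G A) ∈ twoGenSubgroup p g e := by
  have h1 : (inl (bFun p g c) : Wr G A) =
      inr (Equiv.addLeft (-c)) * inl (aFun p g) * inr (Equiv.addLeft (-c))⁻¹ := by
    rw [← inl_aut]
    congr 1
    ext ω
    simp [bFun]
  rw [h1, map_inv]
  have h2 := inr_addLeft_mem (G := G) p g e hcyc (-c)
  exact mul_mem (mul_mem h2 (subset_closure (by simp [genA]))) (inv_mem h2)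

omit [DecidableEq A] in
theorem sidon_injective (hp : ∀ i j u v, p i - p j = p u - p v → i ≠ j → i = u ∧ j = v) :
    Function.Injective p := by
  intro i j hij
  by_contra hne
  have := hp i j i i (by simp [hij]) hne
  exact hne this.2.symm

theorem commutator_bFun (hp : ∀ i j u v, p i - p j = p u - p v → i ≠ j → i = u ∧ j = v)
    (i j : ι) (hij : i ≠ j) :
    ⁅bFun p g (p i), bFun p g (p j)⁆ = Pi.mulSingle (0 : A) ⁅g i, g j⁆ := by
  have hinj := sidon_injective p hp
  ext ω
  have hc : ⁅bFun p g (p i), bFun p g (p j)⁆ ω = ⁅bFun p g (p i) ω, bFun p g (p j) ω⁆ := rfl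
  rw [hc]
  by_cases hω : ω = 0
  · subst hω
    simp only [bFun, aFun, add_zero, Pi.mulSingle_eq_same]
    rw [hinj.extend_apply, hinj.extend_apply]
  · rw [Pi.mulSingle_eq_of_ne hω]
    by_cases h1 : ∃ u, p u = p i + ω
    · by_cases h2 : ∃ v, p v = p j + ω
      · exfalso
        obtain ⟨u, hu⟩ := h1
        obtain ⟨v, hv⟩ := h2
        have := hp i j u v (by rw [hu, hv]; abel) hij
        apply hω
        have h3 : p u = p i := by rw [this.1]
        rw [h3] at hu
        simpa using hu.symm
      · have : bFun p g (p j) ω = 1 := by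
          simp only [bFun, aFun]
          rw [Function.extend_apply' _ _ _ h2]
          rfl
        rw [this]
        simp
    · have : bFun p g (p i) ω = 1 := by
        simp only [bFun, aFun]
        rw [Function.extend_apply' _ _ _ h1]
        rfl
      rw [this]
      simp

theorem commutator_le_twoGen (hcyc : ∀ c : A, ∃ k : ℕ, c = k • e)
    (hp : ∀ i j u v, p i - p j = p u - p v → i ≠ j → i = u ∧ j = v)
    (hg : closure (Set.range g) = ⊤) (ω : A) :
    commutator G ≤ (twoGenSubgroup p g e).comap (coord ω) := by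
  have hinj := sidon_injective p hp
  refine commutator_le_coord_of_transitive _ 0 ?_ ?_ ω
  · refine commutator_le_coord _ 0 (Set.range g) hg ?_ ?_
    · rintro _ ⟨i, rfl⟩
      refine ⟨inl (bFun p g (p i)), inl_bFun_mem p g e hcyc _, by simp, ?_⟩
      simp only [left_inl, bFun, aFun, add_zero]
      rw [hinj.extend_apply]
    · rintro _ ⟨i, rfl⟩ _ ⟨j, rfl⟩
      by_cases hij : i = j
      · subst hij
        simp
      · rw [coord_apply, ← commutator_bFun p g hp i j hij, map_commutatorElement]
        have hi := inl_bFun_mem p g e hcyc (p i)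
        have hj := inl_bFun_mem p g e hcyc (p j)
        rw [commutatorElement_def]
        exact mul_mem (mul_mem (mul_mem hi hj) (inv_mem hi)) (inv_mem hj)
  · intro ω
    exact ⟨inr (Equiv.addLeft ω), inr_addLeft_mem p g e hcyc ω, by simp⟩

end abstractSidon

section sidon

theorem two_pow_aux {i v u j : ℕ} (h1 : i ≤ v) (h2 : u ≤ j) (h : 2 ^ i + 2 ^ v = 2 ^ u + 2 ^ j) :
    i = u ∧ v = j := by
  have hvj : v = j := by
    rcases lt_trichotomy v j with hlt | heq | hgt
    · exfalso
      have a1 : 2 ^ i ≤ 2 ^ v := Nat.pow_le_pow_right (by norm_num) h1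
      have a2 : 2 ^ (v + 1) ≤ 2 ^ j := Nat.pow_le_pow_right (by norm_num) hlt
      have a3 : 0 < 2 ^ u := by positivity
      rw [pow_succ] at a2
      omega
    · exact heq
    · exfalso
      have a1 : 2 ^ u ≤ 2 ^ j := Nat.pow_le_pow_right (by norm_num) h2
      have a2 : 2 ^ (j + 1) ≤ 2 ^ v := Nat.pow_le_pow_right (by norm_num) hgt
      have a3 : 0 < 2 ^ i := by positivity
      rw [pow_succ] at a2
      omega
  subst hvj
  refine ⟨?_, rfl⟩
  have : 2 ^ i = 2 ^ u := by omega
  exact Nat.pow_right_injective (le_refl 2) this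

theorem two_pow_sidon {i j u v : ℕ} (h : 2 ^ i + 2 ^ v = 2 ^ u + 2 ^ j) (hij : i ≠ j) :
    i = u ∧ j = v := by
  rcases le_total i v with h1 | h1 <;> rcases le_total u j with h2 | h2
  · have := two_pow_aux h1 h2 h
    exact ⟨this.1, this.2.symm⟩
  · have := two_pow_aux h1 h2 (by rw [h, add_comm])
    exact absurd this.1 hij
  · have := two_pow_aux h1 h2 (by rw [add_comm, h])
    exact absurd this.2 hij
  · have := two_pow_aux h1 h2 (by rw [add_comm, h, add_comm])
    exact ⟨this.2, this.1.symm⟩

/-- the positions `2 ^ i` in `Z / 2 ^ (d + 1)` -/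
def pos (d : ℕ) : Fin d → ZMod (2 ^ (d + 1)) := fun i => ((2 ^ (i : ℕ) : ℕ) : ZMod (2 ^ (d + 1)))

theorem pos_sidon (d : ℕ) (i j u v : Fin d) (h : pos d i - pos d j = pos d u - pos d v)
    (hij : i ≠ j) : i = u ∧ j = v := by
  have h1 : pos d i + pos d v = pos d u + pos d j := by
    have := sub_eq_sub_iff_add_eq_add.mp h
    exact this
  simp only [pos] at h1
  rw [← Nat.cast_add, ← Nat.cast_add, ZMod.natCast_eq_natCast_iff'] at h1
  have bound : ∀ a b : Fin d, 2 ^ (a : ℕ) + 2 ^ (b : ℕ) < 2 ^ (d + 1) := by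
    intro a b
    have ha : 2 ^ (a : ℕ) < 2 ^ d := Nat.pow_lt_pow_right (by norm_num) a.2
    have hb : 2 ^ (b : ℕ) < 2 ^ d := Nat.pow_lt_pow_right (by norm_num) b.2
    rw [pow_succ]
    omega
  rw [Nat.mod_eq_of_lt (bound i v), Nat.mod_eq_of_lt (bound u j)] at h1
  have := two_pow_sidon h1 (fun h => hij (Fin.ext h))
  exact ⟨Fin.ext this.1, Fin.ext this.2⟩

end sidon

universe u

/-- From an infinite finitely presented periodic group one gets a two-generated one. -/
theorem exists_twoGenerated (G : Type u) [Group G] [hfp : Group.IsFinitelyPresented G]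
    (hG : IsMulTorsion G) [Infinite G] :
    ∃ (H : Type u) (_ : Group H), Group.IsFinitelyPresented H ∧ IsMulTorsion H ∧ Infinite H ∧
      ∃ a b : H, closure {a, b} = ⊤ := by
  classical
  have hfg : Group.FG G := fg_of_isFinitelyPresented G
  obtain ⟨d, φ, hφ, -⟩ := hfp.out
  let g : Fin d → G := fun i => φ (FreeGroup.of i)
  have hg : closure (Set.range g) = ⊤ := by
    have : Set.range g = φ '' Set.range FreeGroup.of := by
      rw [← Set.range_comp]; rfl
    rw [this, ← MonoidHom.map_closure, FreeGroup.closure_range_of, ← MonoidHom.range_eq_map,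
      MonoidHom.range_eq_top]
    exact hφ
  have : NeZero (2 ^ (d + 1)) := ⟨by positivity⟩
  let A := ZMod (2 ^ (d + 1))
  have hcyc : ∀ c : A, ∃ k : ℕ, c = k • (1 : A) := by
    intro c
    refine ⟨c.val, ?_⟩
    rw [nsmul_one]
    exact (ZMod.natCast_zmod_val c).symm
  let H : Subgroup (Wr G A) := twoGenSubgroup (pos d) g (1 : A)
  have hfi : H.FiniteIndex :=
    finiteIndex_of_commutator_le hG H (commutator_le_twoGen (pos d) g 1 hcyc (pos_sidon d) hg)
  have hW : Group.IsFinitelyPresented (Wr G A) := isFinitelyPresented_wr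
  refine ⟨H, inferInstance, isFinitelyPresented_of_finiteIndex H,
    (isMulTorsion_wr hG).subgroup H, ?_, ?_⟩
  · by_contra hfin
    rw [not_infinite_iff_finite] at hfin
    have hWinf : Infinite (Wr G A) := infinite_wr
    have : Finite (Wr G A) := (finite_iff_finite_and_finiteIndex H).mpr ⟨hfin, hfi⟩
    exact not_finite (Wr G A)
  · have hmemA : genA (pos d) g ∈ H := subset_closure (by simp)
    have hmemT : (genT (1 : A) : Wr G A) ∈ H := subset_closure (by simp)
    refine ⟨⟨_, hmemA⟩, ⟨_, hmemT⟩, ?_⟩
    have key : closure (((↑) : H → Wr G A) ⁻¹' {genA (pos d) g, genT (1 : A)}) = ⊤ :=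
      closure_closure_coe_preimage (k := ({genA (pos d) g, genT (1 : A)} : Set (Wr G A)))
    rw [← key]
    congr 1
    ext x
    simp [Subtype.ext_iff]

end Vale.Agent.Lib.P192
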